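import Vale.Agent.P046.Limit

/-! The random triangle removal process leaves `(1 / (2 √2) + o(1)) n ^ (3 / 2)` edges. -/

open Vale.Agent.P046 Filter Topology

theorem Vale.Agent.Results.P046.TriangleRemoval.result :
    (∀ n, ∀ G ∈ (final n).support, G.CliqueFree 3) ∧
    (∀ ε : ℝ, 0 < ε → Tendsto
      (fun n => (final n).toOuterMeasure {G | ε < |ratio G - 1 / (2 * √2)|}) atTop (𝓝 0)) ∧
    Tendsto (fun n => ∑' G, (final n G).toReal * ratio G) atTop (𝓝 (1 / (2 * √2))) ∧
    Tendsto (fun n => ∑' G, (final n G).toReal * (ratio G - 1 / (2 * √2)) ^ 2) atTop (𝓝 0) :=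
  ⟨final_cliqueFree, fun _ => tendsto_prob, tendsto_mean, tendsto_sq⟩
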